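import Vale.Agent.P159.T1.S.Stmts
import Vale.Agent.P159.T1.H565.Upm6

/-!
P159 T1, stage 2, row S.T: reduction of the two tips to one tip.
-/

open Finset

namespace Vale.Agent.P159.T1.S.H85

open Vale.Agent.P159 Vale.Agent.P159.H353 Vale.Agent.P159.T1.D
open Vale.Agent.P159.T1.H565
open Vale.Agent.P159.T1.H775 (stp)

/-- the left half line -/
def hs (f : Z2) : Prop := f.2 = -1 ∧ f.1 < 0

/-- scale invariant bounds, one tip -/
structure Tent1 (K c1 : ℝ) (n0 r : ℕ) (t : Z2 → ℝ) : Prop where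
  nonneg : ∀ f, 0 ≤ t f
  le : ∀ f, t f ≤ K
  slit : ∀ f, hs f → t f = 0
  near : ∀ f, 2 * nm f ≤ n0 → t f = 0
  far : ∀ f, 2 * c1 * r ≤ nm f → t f = 0
  grad : ∀ f d, (1 + nm f : ℝ) * |t (stp d f) - t f| ≤ K
  lap : ∀ f, ¬ hs f → (1 + nm f : ℝ) ^ 2 * |H775.lap t f| ≤ K
  second : ∀ f d d', ¬ hs f → ¬ hs (stp d f) → ¬ hs (stp d' f) → ¬ hs (stp d (stp d' f)) →
    (1 + nm f : ℝ) ^ 2 * |t (stp d (stp d' f)) - t (stp d' f) - (t (stp d f) - t f)| ≤ K

/-- one tip, normalized -/
def StmtT0 : Prop :=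
  ∀ (ε c1 : ℝ) (q : ℕ), 0 < ε → 1 ≤ q → 0 < c1 → c1 < 1 / 8 →
    ∃ (K : ℝ) (n1 : ℕ), 0 < K ∧ ∀ n0 ≥ n1, ∃ C : ℝ, ∀ r : ℕ, (n0 : ℝ) ≤ c1 * r →
      ∃ t : Z2 → ℝ, Tent1 K c1 n0 r t ∧ ∀ S : Finset Bnd, (∀ e ∈ S, ¬ hs (lf e) ∨ ¬ hs (rt e)) →
        ∑ e ∈ S, (Kf q (1 / ang q) (-(1 / (2 * Real.pi - ang q))) (clp n0 (c1 * r)) e -
          dr t e) ^ 2 ≤ ε * Real.log r + C

theorem stp_mir (r : ℕ) (d : Bool) (f : Z2) :
    (d = true ∧ mir r (stp d f) = stp d (mir r f)) ∨
      (d = false ∧ stp d (mir r (stp d f)) = mir r f) := by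
  obtain ⟨i, j⟩ := f
  cases d
  · right
    refine ⟨rfl, ?_⟩
    unfold stp mir
    simp only [Bool.false_eq_true, if_false, Prod.mk.injEq, and_true]
    ring
  · left
    exact ⟨rfl, rfl⟩

theorem nm_stp (d : Bool) (f : Z2) : nm (stp d f) ≤ nm f + 1 ∧ nm f ≤ nm (stp d f) + 1 := by
  obtain ⟨i, j⟩ := f
  unfold nm stp
  cases d
  · simp only [Bool.false_eq_true, if_false]
    omega
  · simp only [if_true]
    omega

theorem nm_mir (r : ℕ) (f : Z2) : r ≤ nm f + nm (mir r f) + 1 := by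
  obtain ⟨i, j⟩ := f
  unfold nm mir
  simp only
  omega

theorem slit_iff (r : ℕ) (f : Z2) : f ∈ slit r ↔ hs f ∨ hs (mir r f) := by
  obtain ⟨i, j⟩ := f
  unfold slit hs mir
  simp only [Set.mem_ofPred_eq]
  omega

theorem lap_mir (r : ℕ) (t : Z2 → ℝ) (f : Z2) :
    H775.lap (fun g => t (mir r g)) f = H775.lap t (mir r f) := by
  obtain ⟨i, j⟩ := f
  unfold H775.lap mir
  simp only
  have e1 : (r : ℤ) - 1 - (i + 1) = r - 1 - i - 1 := by ring
  have e2 : (r : ℤ) - 1 - (i - 1) = r - 1 - i + 1 := by ring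
  rw [e1, e2]
  ring

theorem second_mir (r : ℕ) (t : Z2 → ℝ) (f : Z2) (d d' : Bool) :
    ∃ u : Z2, nm (mir r f) ≤ nm u + 2 ∧
      (∀ p : Z2 → Prop, p (mir r f) → p (mir r (stp d f)) → p (mir r (stp d' f)) →
        p (mir r (stp d (stp d' f))) →
        p u ∧ p (stp d u) ∧ p (stp d' u) ∧ p (stp d (stp d' u))) ∧
      |t (mir r (stp d (stp d' f))) - t (mir r (stp d' f)) -
          (t (mir r (stp d f)) - t (mir r f))| =
        |t (stp d (stp d' u)) - t (stp d' u) - (t (stp d u) - t u)| := by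
  obtain ⟨i, j⟩ := f
  cases d <;> cases d'
  · refine ⟨((r : ℤ) - 1 - i - 2, j), ?_, ?_, ?_⟩
    · unfold nm mir
      simp only
      omega
    · intro p
      simp only [stp, mir, Bool.false_eq_true, if_false]
      have e1 : (r : ℤ) - 1 - i - 2 + 1 + 1 = r - 1 - i := by ring
      have e2 : (r : ℤ) - 1 - i - 2 + 1 = r - 1 - (i + 1) := by ring
      have e3 : (r : ℤ) - 1 - i - 2 = r - 1 - (i + 1 + 1) := by ring
      rw [e1, e2, e3]
      intro a b c d
      exact ⟨d, b, c, a⟩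
    · simp only [stp, mir, Bool.false_eq_true, if_false]
      have e1 : (r : ℤ) - 1 - i - 2 + 1 + 1 = r - 1 - i := by ring
      have e2 : (r : ℤ) - 1 - i - 2 + 1 = r - 1 - (i + 1) := by ring
      have e3 : (r : ℤ) - 1 - i - 2 = r - 1 - (i + 1 + 1) := by ring
      rw [e1, e2, e3]
      congr 1
      ring
  · refine ⟨((r : ℤ) - 1 - i - 1, j), ?_, ?_, ?_⟩
    · unfold nm mir
      simp only
      omega
    · intro p
      simp only [stp, mir, Bool.false_eq_true, if_false, if_true]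
      have e1 : (r : ℤ) - 1 - i - 1 + 1 = r - 1 - i := by ring
      have e2 : (r : ℤ) - 1 - i - 1 = r - 1 - (i + 1) := by ring
      rw [e1, e2]
      intro a b c d
      exact ⟨b, a, d, c⟩
    · simp only [stp, mir, Bool.false_eq_true, if_false, if_true]
      have e1 : (r : ℤ) - 1 - i - 1 + 1 = r - 1 - i := by ring
      have e2 : (r : ℤ) - 1 - i - 1 = r - 1 - (i + 1) := by ring
      rw [e1, e2, ← abs_neg]
      congr 1
      ring
  · refine ⟨((r : ℤ) - 1 - i - 1, j), ?_, ?_, ?_⟩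
    · unfold nm mir
      simp only
      omega
    · intro p
      simp only [stp, mir, Bool.false_eq_true, if_false, if_true]
      have e1 : (r : ℤ) - 1 - i - 1 + 1 = r - 1 - i := by ring
      have e2 : (r : ℤ) - 1 - i - 1 = r - 1 - (i + 1) := by ring
      rw [e1, e2]
      intro a b c d
      exact ⟨c, d, a, b⟩
    · simp only [stp, mir, Bool.false_eq_true, if_false, if_true]
      have e1 : (r : ℤ) - 1 - i - 1 + 1 = r - 1 - i := by ring
      have e2 : (r : ℤ) - 1 - i - 1 = r - 1 - (i + 1) := by ring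
      rw [e1, e2, ← abs_neg]
      congr 1
      ring
  · refine ⟨((r : ℤ) - 1 - i, j), ?_, ?_, ?_⟩
    · unfold nm mir
      simp only
      omega
    · intro p
      simp only [stp, mir, if_true]
      intro a b c d
      exact ⟨a, b, c, d⟩
    · simp only [stp, mir, if_true]

/-- the tent with two tips -/
def two (r : ℕ) (t : Z2 → ℝ) (f : Z2) : ℝ := t f + t (mir r f)

theorem tent_of {K c1 : ℝ} {n0 r : ℕ} {t : Z2 → ℝ} (hc : 0 < c1) (hc1 : c1 < 1 / 8)
    (hn : 1 ≤ n0) (hr : (n0 : ℝ) ≤ c1 * r) (h : Tent1 K c1 n0 r t) :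
    Tent (10 * K) c1 n0 r (two r t) := by
  have hK : 0 ≤ K := (h.nonneg (0, 0)).trans (h.le _)
  have hn' : (1 : ℝ) ≤ n0 := by exact_mod_cast hn
  have hr8 : (8 : ℝ) ≤ r := by
    have h0 : (0 : ℝ) ≤ r := Nat.cast_nonneg r
    nlinarith
  have hfar : ∀ f, (nm f : ℝ) ≤ r / 2 → t (mir r f) = 0 := by
    intro f hf
    apply h.far
    have h1 : (r : ℝ) ≤ nm f + nm (mir r f) + 1 := by exact_mod_cast nm_mir r f
    nlinarith
  have ns1 : ∀ f, (ns r f : ℝ) ≤ nm f := fun f => by
    exact_mod_cast min_le_left _ _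
  have ns2 : ∀ f, (ns r f : ℝ) ≤ nm (mir r f) := fun f => by
    exact_mod_cast min_le_right _ _
  refine ⟨fun f => add_nonneg (h.nonneg _) (h.nonneg _), fun f => ?_, fun f hf => ?_,
    fun f hf => ?_, fun f hf => ?_, fun f d => ?_, fun f hf => ?_, fun f d d' h1 h2 h3 h4 => ?_⟩
  · have h1 := h.le f
    have h2 := h.le (mir r f)
    unfold two
    linarith
  · -- the slit
    have aux : ∀ g : Z2, hs g → two r t g = 0 := by
      intro g hg
      unfold two
      rw [h.slit g hg, zero_add]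
      apply h.far
      have h1 : (r : ℤ) ≤ nm (mir r g) := by
        obtain ⟨i, j⟩ := g
        obtain ⟨h2, h3⟩ := hg
        unfold nm mir
        simp only at h2 h3 ⊢
        omega
      have h2 : (r : ℝ) ≤ nm (mir r g) := by exact_mod_cast h1
      nlinarith
    rcases (slit_iff r f).1 hf with h1 | h1
    · exact aux f h1
    · have := aux _ h1
      unfold two at this ⊢
      rw [mir_mir] at this
      linarith
  · -- near the tips
    have aux : ∀ g : Z2, 2 * nm g ≤ n0 → two r t g = 0 := by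
      intro g hg
      unfold two
      rw [h.near g hg, zero_add]
      apply hfar
      have h1 : (2 : ℝ) * nm g ≤ n0 := by exact_mod_cast hg
      nlinarith
    unfold ns at hf
    rcases le_total (nm f) (nm (mir r f)) with h1 | h1
    · rw [min_eq_left h1] at hf
      exact aux f hf
    · rw [min_eq_right h1] at hf
      have := aux _ hf
      unfold two at this ⊢
      rw [mir_mir] at this
      linarith
  · unfold two
    rw [h.far f (hf.trans (ns1 f)), h.far _ (hf.trans (ns2 f)), add_zero]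
  · -- first differences
    have a1 := h.grad f d
    have a2 : (1 + nm (mir r f) : ℝ) * |t (mir r (stp d f)) - t (mir r f)| ≤ 2 * K := by
      rcases stp_mir r d f with ⟨_, e⟩ | ⟨_, e⟩
      · rw [e]
        have := h.grad (mir r f) d
        linarith
      · have b1 := h.grad (mir r (stp d f)) d
        rw [e] at b1
        have b2 : (nm (mir r f) : ℝ) ≤ nm (mir r (stp d f)) + 1 := by
          have := (nm_stp d (mir r (stp d f))).1
          rw [e] at this
          exact_mod_cast this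
        rw [abs_sub_comm] at b1
        have b3 : (0 : ℝ) ≤ nm (mir r (stp d f)) := Nat.cast_nonneg _
        have b4 := abs_nonneg (t (mir r (stp d f)) - t (mir r f))
        nlinarith
    have e : two r t (stp d f) - two r t f =
        (t (stp d f) - t f) + (t (mir r (stp d f)) - t (mir r f)) := by unfold two; ring
    rw [e]
    have c1' := mul_le_mul_of_nonneg_right (add_le_add_right (ns1 f) (1 : ℝ))
      (abs_nonneg (t (stp d f) - t f))
    have c2' := mul_le_mul_of_nonneg_right (add_le_add_right (ns2 f) (1 : ℝ))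
      (abs_nonneg (t (mir r (stp d f)) - t (mir r f)))
    have c3 := abs_add_le (t (stp d f) - t f) (t (mir r (stp d f)) - t (mir r f))
    have c4 : (0 : ℝ) ≤ 1 + ns r f := by positivity
    have c5 := mul_le_mul_of_nonneg_left c3 c4
    rw [mul_add] at c5
    linarith
  · -- the Laplacian
    rw [slit_iff, not_or] at hf
    have a1 := h.lap f hf.1
    have a2 := h.lap (mir r f) hf.2
    have e : H775.lap (two r t) f = H775.lap t f + H775.lap t (mir r f) := by
      rw [← lap_mir, ← H775.lap_add]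
      rfl
    rw [e]
    have c4 : (0 : ℝ) ≤ 1 + ns r f := by positivity
    have c1' := mul_le_mul_of_nonneg_right (pow_le_pow_left₀ c4 (add_le_add_right (ns1 f) (1 : ℝ)) 2)
      (abs_nonneg (H775.lap t f))
    have c2' := mul_le_mul_of_nonneg_right (pow_le_pow_left₀ c4 (add_le_add_right (ns2 f) (1 : ℝ)) 2)
      (abs_nonneg (H775.lap t (mir r f)))
    have c3 := abs_add_le (H775.lap t f) (H775.lap t (mir r f))
    have c5 := mul_le_mul_of_nonneg_left c3 (sq_nonneg (1 + ns r f : ℝ))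
    rw [mul_add] at c5
    linarith
  · -- second differences
    rw [slit_iff, not_or] at h1 h2 h3 h4
    have a1 := h.second f d d' h1.1 h2.1 h3.1 h4.1
    obtain ⟨u, hu, hp, e0⟩ := second_mir r t f d d'
    obtain ⟨p1, p2, p3, p4⟩ := hp (fun g => ¬ hs g) h1.2 h2.2 h3.2 h4.2
    have a2 := h.second u d d' p1 p2 p3 p4
    rw [← e0] at a2
    have e : two r t (stp d (stp d' f)) - two r t (stp d' f) -
        (two r t (stp d f) - two r t f) =
        (t (stp d (stp d' f)) - t (stp d' f) - (t (stp d f) - t f)) +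
        (t (mir r (stp d (stp d' f))) - t (mir r (stp d' f)) -
          (t (mir r (stp d f)) - t (mir r f))) := by unfold two; ring
    rw [e]
    generalize t (stp d (stp d' f)) - t (stp d' f) - (t (stp d f) - t f) = X at a1 ⊢
    generalize t (mir r (stp d (stp d' f))) - t (mir r (stp d' f)) -
      (t (mir r (stp d f)) - t (mir r f)) = X' at a2 ⊢
    have hu' : (nm (mir r f) : ℝ) ≤ nm u + 2 := by exact_mod_cast hu
    have u0 : (0 : ℝ) ≤ nm u := Nat.cast_nonneg _
    have c4 : (0 : ℝ) ≤ 1 + ns r f := by positivity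
    have n1 := ns1 f
    have n2 := ns2 f
    have c1' : (1 + ns r f : ℝ) ^ 2 ≤ (1 + nm f : ℝ) ^ 2 :=
      pow_le_pow_left₀ c4 (by linarith) 2
    have c2' : (1 + ns r f : ℝ) ^ 2 ≤ 9 * (1 + nm u : ℝ) ^ 2 := by nlinarith
    have d1 := mul_le_mul_of_nonneg_right c1' (abs_nonneg X)
    have d2 := mul_le_mul_of_nonneg_right c2' (abs_nonneg X')
    have c3 := abs_add_le X X'
    have c5 := mul_le_mul_of_nonneg_left c3 (sq_nonneg (1 + ns r f : ℝ))
    rw [mul_add] at c5
    linarith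

/-! ### the energy -/

theorem dr_two (r : ℕ) (t : Z2 → ℝ) (e : Bnd) : dr (two r t) e = dr t e + mB r (dr t) e := by
  unfold dr mB two
  beta_reduce
  rw [lf_mb, rt_mb]
  by_cases h : e.2 = true
  · simp only [if_pos h]
    ring
  · simp only [if_neg h]
    ring

/-- the explicit field = cone part + its mirror image + small part -/
theorem Be_eq (Y V : ℝ) (q n0 r : ℕ) (κ x y s c1 : ℝ) (e : Bnd) :
    Be Y V q n0 r κ x y s c1 e = Bf Y (V - aq q) q (clp n0 (c1 * r)) e +
      mB r (Bf Y (V - aq q) q (clp n0 (c1 * r))) e + XW Y V q n0 r c1 κ x y s e := by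
  have e1 : (fun τ => clp n0 ((r : ℝ) / 4) τ - clp n0 (c1 * r) τ) = GD n0 c1 r := rfl
  unfold Be XW Bm
  rw [e1]
  unfold mB
  simp only [Bf_eq]
  split_ifs <;> ring

theorem Bf_norm (Y V' : ℝ) (q : ℕ) (Γ : ℝ → ℝ) (e : Bnd) :
    Bf Y V' q Γ e = V' / Y * Kf q (1 / ang q) (-(1 / (2 * Real.pi - ang q))) Γ e := by
  rw [Bf_eq, ← Kf_mul]
  congr 1
  · rw [div_mul_div_comm, mul_one]
  · rw [mul_neg, div_mul_div_comm, mul_one]

theorem aq_lt {q : ℕ} (hq : 1 ≤ q) : 0 < aq q ∧ aq q < 1 := by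
  have h1 := ang_pos hq
  have h2 := ang_lt q
  have hpi := Real.pi_pos
  unfold aq
  constructor
  · apply div_pos <;> linarith
  · rw [div_lt_one (by positivity)]
    linarith

/-- **reduction to one tip** -/
theorem stmtT_of (h0 : StmtT0) : StmtT := by
  intro Y V ε κ x y s c1 q hY hV hε hp
  obtain ⟨hq, hκ, hs0, hsy, hsx, hqs, hc, hc2⟩ := hp
  have hqr : (1 : ℝ) ≤ q := by exact_mod_cast hq
  have hsx' : s < x := by nlinarith
  have hc8 : c1 < 1 / 8 := by linarith
  obtain ⟨ha0, ha1⟩ := aq_lt hq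
  set V' : ℝ := V - aq q with hV'
  have hV'0 : 0 < V' := by linarith
  set w : ℝ := V' / Y with hw
  have hw0 : 0 < w := by positivity
  obtain ⟨K, n1, hK, H⟩ := h0 (ε / (6 * w ^ 2)) c1 q (by positivity) hq hc hc8
  obtain ⟨M, hM, hXW⟩ := XW_props (Y := Y) (a := V) (q := q) (c := c1) (κ := κ) (x := x) (y := y)
    (s := s) hc (by linarith) hκ.le hs0 hsx' (by linarith)
  refine ⟨10 * (V' * K), max n1 4, by positivity, fun n0 hn => ?_⟩
  obtain ⟨C, hC⟩ := H n0 (le_trans (le_max_left _ _) hn)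
  have hn4 : 4 ≤ n0 := le_trans (le_max_right _ _) hn
  refine ⟨6 * w ^ 2 * C + 3 * (162 * M ^ 2), fun r hr => ?_⟩
  obtain ⟨t0, ht, hS⟩ := hC r hr
  have hn4' : (4 : ℝ) ≤ n0 := by exact_mod_cast hn4
  have hcr : 4 ≤ c1 * r := by linarith
  have hr3 : 3 ≤ r := by
    have h3 : (3 : ℝ) ≤ r := by
      have : (0 : ℝ) ≤ r := Nat.cast_nonneg r
      nlinarith
    exact_mod_cast h3
  have hT1 : Tent1 (V' * K) c1 n0 r (fun f => V' * t0 f) := by
    have hab : ∀ a : ℝ, |V' * a| = V' * |a| := fun a => by rw [abs_mul, abs_of_pos hV'0]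
    refine ⟨fun f => mul_nonneg hV'0.le (ht.nonneg f),
      fun f => mul_le_mul_of_nonneg_left (ht.le f) hV'0.le, fun f hf => ?_, fun f hf => ?_,
      fun f hf => ?_, fun f d => ?_, fun f hf => ?_, fun f d d' h1 h2 h3 h4 => ?_⟩
    · rw [ht.slit f hf, mul_zero]
    · rw [ht.near f hf, mul_zero]
    · rw [ht.far f hf, mul_zero]
    · have := mul_le_mul_of_nonneg_left (ht.grad f d) hV'0.le
      rw [← mul_sub, hab]
      linarith
    · have := mul_le_mul_of_nonneg_left (ht.lap f hf) hV'0.le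
      rw [H775.lap_smul, hab]
      linarith
    · have := mul_le_mul_of_nonneg_left (ht.second f d d' h1 h2 h3 h4) hV'0.le
      rw [← mul_sub, ← mul_sub, ← mul_sub, hab]
      linarith
  refine ⟨two r (fun f => V' * t0 f), tent_of hc hc8 (by omega) hr hT1, fun S hS0 => ?_⟩
  set Z : Bnd → ℝ := fun e => Kf q (1 / ang q) (-(1 / (2 * Real.pi - ang q)))
    (clp n0 (c1 * r)) e - dr t0 e with hZ
  have hdr : ∀ e, dr (fun f => V' * t0 f) e = V' * dr t0 e := fun e => by unfold dr; ring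
  have hpt : ∀ e, Be Y V q n0 r κ x y s c1 e - dr (two r fun f => V' * t0 f) e / Y =
      w * Z e + mB r (fun e => w * Z e) e + XW Y V q n0 r c1 κ x y s e := by
    intro e
    rw [Be_eq, dr_two]
    have e1 : Bf Y V' q (clp n0 (c1 * r)) = fun e => w * Kf q (1 / ang q)
        (-(1 / (2 * Real.pi - ang q))) (clp n0 (c1 * r)) e :=
      funext fun e => Bf_norm Y V' q _ e
    have e2 : dr (fun f => V' * t0 f) = fun e => V' * dr t0 e := funext hdr
    rw [← hV', e1, e2]
    unfold mB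
    simp only [hZ, hw]
    split_ifs <;> field_simp <;> ring
  have hsum1 : ∑ e ∈ S, (w * Z e) ^ 2 ≤ w ^ 2 * (ε / (6 * w ^ 2) * Real.log r + C) := by
    have h1 := hS S fun e he => by
      rcases hS0 e he with h2 | h2
      · left; intro h3; exact h2 ((slit_iff r _).2 (Or.inl h3))
      · right; intro h3; exact h2 ((slit_iff r _).2 (Or.inl h3))
    have h2 : ∑ e ∈ S, (w * Z e) ^ 2 = w ^ 2 * ∑ e ∈ S, Z e ^ 2 := by
      rw [Finset.mul_sum]
      exact Finset.sum_congr rfl fun e _ => by ring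
    rw [h2]
    exact mul_le_mul_of_nonneg_left h1 (sq_nonneg w)
  have hsum2 : ∑ e ∈ S, mB r (fun e => w * Z e) e ^ 2 ≤
      w ^ 2 * (ε / (6 * w ^ 2) * Real.log r + C) := by
    rw [sum_mB_sq]
    have h1 := hS (S.image (mb r)) fun e he => by
      obtain ⟨e', he', rfl⟩ := Finset.mem_image.1 he
      have h4 := hS0 e' he'
      rw [lf_mb, rt_mb]
      have key : ∀ g : Z2, g ∉ slit r → ¬ hs (mir r g) := fun g hg h5 =>
        hg ((slit_iff r g).2 (Or.inr h5))
      by_cases hb : e'.2 = true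
      · rw [if_pos hb, if_pos hb]
        rcases h4 with h5 | h5
        · exact Or.inr (key _ h5)
        · exact Or.inl (key _ h5)
      · rw [if_neg hb, if_neg hb]
        rcases h4 with h5 | h5
        · exact Or.inl (key _ h5)
        · exact Or.inr (key _ h5)
    have h2 : ∑ e ∈ S.image (mb r), (w * Z e) ^ 2 = w ^ 2 * ∑ e ∈ S.image (mb r), Z e ^ 2 := by
      rw [Finset.mul_sum]
      exact Finset.sum_congr rfl fun e _ => by ring
    rw [h2]
    exact mul_le_mul_of_nonneg_left h1 (sq_nonneg w)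
  obtain ⟨x1, x2, _⟩ := hXW n0 r r (by omega) hr3 hcr le_rfl
  have hsum3 := energy_small (by omega : 1 ≤ r) x1 x2 S
  have hle : ∑ e ∈ S, (Be Y V q n0 r κ x y s c1 e - dr (two r fun f => V' * t0 f) e / Y) ^ 2 ≤
      3 * ∑ e ∈ S, (w * Z e) ^ 2 + 3 * ∑ e ∈ S, mB r (fun e => w * Z e) e ^ 2 +
        3 * ∑ e ∈ S, XW Y V q n0 r c1 κ x y s e ^ 2 := by
    rw [Finset.mul_sum, Finset.mul_sum, Finset.mul_sum, ← Finset.sum_add_distrib,
      ← Finset.sum_add_distrib]
    refine Finset.sum_le_sum fun e _ => ?_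
    rw [hpt]
    generalize w * Z e = a
    generalize mB r (fun e => w * Z e) e = b
    generalize XW Y V q n0 r c1 κ x y s e = c
    nlinarith [sq_nonneg (a - b), sq_nonneg (a - c), sq_nonneg (b - c)]
  have hfin : w ^ 2 * (ε / (6 * w ^ 2) * Real.log r + C) =
      ε * Real.log r / 6 + w ^ 2 * C := by
    field_simp
  rw [hfin] at hsum1 hsum2
  linarith

end Vale.Agent.P159.T1.S.H85
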